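import Vale.Agent.Lib.P139.Defs
import Vale.Agent.Lib.P139.Summ
import Vale.Agent.Lib.P139.GaussOpen
import Vale.Agent.Lib.P139.GaussSq
import Vale.Agent.Lib.P139.Support
import Vale.Agent.Lib.P139.Exist

/-!
# P139: the Gaussian random datum has full support in `H^k(𝕋^d)` for every `k < α - d/2`

Functions on the torus are described by their Fourier coefficients.  The law of the random datum
`u_0^ω = ∑ g_n ⟨n⟩^{-α} e^{in·x}` charges every ball of `H^k`, `k < α - d/2`.  Hence a set of data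
that contains an `H^k` ball (for instance a set of blow-up data with nonempty interior) is hit with
positive probability, and a set of data of full probability (the global data, if the almost sure
global existence asked for in the problem holds) is dense in `H^k`.
-/

namespace Vale.Agent.Results.P139.FullSupport

open MeasureTheory ProbabilityTheory Vale.Agent.Lib.P139
open scoped ENNReal NNReal

theorem jb_pos {d : ℕ} (n : Fin d → ℤ) : 0 < jb n := lt_of_lt_of_le one_pos (one_le_jb n)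

theorem weight_sum (d : ℕ) (α k : ℝ) (hk : k < α - d / 2) :
    ∑' n : Fin d → ℤ, ENNReal.ofReal (jb n ^ (2 * k) * (jb n ^ (-α)) ^ 2) ≠ ⊤ := by
  have h := summable_jb d (2 * α - 2 * k) (by linarith)
  have e : (fun n : Fin d → ℤ => jb n ^ (2 * k) * (jb n ^ (-α)) ^ 2)
      = fun n : Fin d → ℤ => jb n ^ (-(2 * α - 2 * k)) := by
    funext n
    rw [← Real.rpow_natCast (jb n ^ (-α)) 2, ← Real.rpow_mul (jb_pos n).le,
      ← Real.rpow_add (jb_pos n)]
    congr 1
    push_cast
    ring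
  rw [← e] at h
  exact h.tsum_ofReal_ne_top

theorem ball_pos (d : ℕ) (α k : ℝ) (hk : k < α - d / 2)
    {Ω : Type} [MeasurableSpace Ω] (P : Measure Ω) [IsProbabilityMeasure P]
    (g : (Fin d → ℤ) → Ω → ℂ) (hG : ∀ n, IsStdComplexGaussian P (g n)) (hind : iIndepFun g P)
    (v : (Fin d → ℤ) → ℂ) (hv : hkDistSq k v 0 < ⊤) (ε : ℝ≥0∞) (hε : 0 < ε) :
    0 < P {ω | hkDistSq k (datum α g ω) v < ε} := by
  have hv' : ∑' n : Fin d → ℤ, ENNReal.ofReal (jb n ^ (2 * k) * ‖v n‖ ^ 2) ≠ ⊤ := by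
    have : hkDistSq k v 0 = ∑' n : Fin d → ℤ, ENNReal.ofReal (jb n ^ (2 * k) * ‖v n‖ ^ 2) := by
      unfold hkDistSq
      simp
    rw [← this]
    exact hv.ne
  exact abstract_support (fun n => (hG n).1) hind
    (fun n U hU hne => (hG n).pos_of_isOpen hU hne) (fun n => (hG n).lintegral_sq.le)
    (fun n => jb n ^ (2 * k)) (fun n => jb n ^ (-α))
    (fun n => Real.rpow_nonneg (jb_pos n).le _) (fun n => (Real.rpow_pos_of_pos (jb_pos n) _).ne')
    (weight_sum d α k hk) v hv' ε hε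

theorem ae_finite (d : ℕ) (α k : ℝ) (hk : k < α - d / 2)
    {Ω : Type} [MeasurableSpace Ω] (P : Measure Ω)
    (g : (Fin d → ℤ) → Ω → ℂ) (hG : ∀ n, IsStdComplexGaussian P (g n)) :
    ∀ᵐ ω ∂P, hkDistSq k (datum α g ω) 0 < ⊤ := by
  have h := abstract_finite (P := P) (fun n => (hG n).1) (fun n => (hG n).lintegral_sq.le)
    (fun n : Fin d → ℤ => ENNReal.ofReal (jb n ^ (2 * k) * (jb n ^ (-α)) ^ 2))
    (weight_sum d α k hk)
  filter_upwards [h] with ω hω
  have e : hkDistSq k (datum α g ω) 0 = ∑' n : Fin d → ℤ,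
      ENNReal.ofReal (jb n ^ (2 * k) * (jb n ^ (-α)) ^ 2) * ENNReal.ofReal (‖g n ω‖ ^ 2) := by
    unfold hkDistSq datum
    refine tsum_congr fun n => ?_
    have hp : 0 ≤ jb n ^ (-α) := Real.rpow_nonneg (jb_pos n).le _
    have hq : 0 ≤ jb n ^ (2 * k) := Real.rpow_nonneg (jb_pos n).le _
    rw [← ENNReal.ofReal_mul (by positivity)]
    congr 1
    simp only [Pi.zero_apply, sub_zero, norm_mul, Complex.norm_real, Real.norm_eq_abs,
      abs_of_nonneg hp]
    ring
  rw [e]
  exact hω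

/-- **Full support of the Gaussian random datum in `H^k`, `k < α - d/2`.**
(0) Independent standard complex Gaussians `g_n`, `n ∈ ℤ^d`, exist.  For every such family:
(1) almost surely the datum lies in `H^k`;
(2) every `H^k` ball (centre `v ∈ H^k`, squared radius `ε > 0`) has positive probability;
(3) every set `B` of data that contains an `H^k` ball is hit with positive probability;
(4) every set `G` of data that contains the datum almost surely meets every `H^k` ball. -/
theorem result :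
    (∀ d : ℕ, ∃ (Ω : Type) (_ : MeasurableSpace Ω) (P : Measure Ω) (g : (Fin d → ℤ) → Ω → ℂ),
      IsProbabilityMeasure P ∧ (∀ n, IsStdComplexGaussian P (g n)) ∧ iIndepFun g P) ∧
    ∀ (d : ℕ) (α k : ℝ), k < α - d / 2 →
    ∀ (Ω : Type) [MeasurableSpace Ω] (P : Measure Ω) [IsProbabilityMeasure P]
      (g : (Fin d → ℤ) → Ω → ℂ), (∀ n, IsStdComplexGaussian P (g n)) → iIndepFun g P →
      (∀ᵐ ω ∂P, hkDistSq k (datum α g ω) 0 < ⊤) ∧
      (∀ v : (Fin d → ℤ) → ℂ, hkDistSq k v 0 < ⊤ → ∀ ε : ℝ≥0∞, 0 < ε →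
        0 < P {ω | hkDistSq k (datum α g ω) v < ε}) ∧
      (∀ B : Set ((Fin d → ℤ) → ℂ),
        (∃ v, hkDistSq k v 0 < ⊤ ∧ ∃ ε : ℝ≥0∞, 0 < ε ∧ ∀ a, hkDistSq k a v < ε → a ∈ B) →
        0 < P {ω | datum α g ω ∈ B}) ∧
      (∀ G : Set ((Fin d → ℤ) → ℂ), (∀ᵐ ω ∂P, datum α g ω ∈ G) →
        ∀ v, hkDistSq k v 0 < ⊤ → ∀ ε : ℝ≥0∞, 0 < ε → ∃ a ∈ G, hkDistSq k a v < ε) := by
  refine ⟨exists_model, ?_⟩
  intro d α k hk Ω _ P _ g hG hind
  refine ⟨ae_finite d α k hk P g hG, ball_pos d α k hk P g hG hind, ?_, ?_⟩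
  · rintro B ⟨v, hv, ε, hε, hB⟩
    refine lt_of_lt_of_le (ball_pos d α k hk P g hG hind v hv ε hε) (measure_mono ?_)
    intro ω hω
    exact hB _ hω
  · intro G hGae v hv ε hε
    have hpos := ball_pos d α k hk P g hG hind v hv ε hε
    by_contra hcon
    have hsub : {ω | hkDistSq k (datum α g ω) v < ε} ⊆ {ω | ¬ datum α g ω ∈ G} := by
      intro ω hω hmem
      exact hcon ⟨_, hmem, hω⟩
    have hzero : P {ω | ¬ datum α g ω ∈ G} = 0 := hGae
    exact absurd (lt_of_lt_of_le hpos (measure_mono hsub)) (by rw [hzero]; exact lt_irrefl _)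

end Vale.Agent.Results.P139.FullSupport
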